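import Vale.Agent.Lib.P062.Part3.A0_0

set_option maxRecDepth 100000
set_option linter.all false

namespace Vale.Agent.Lib.P062.Part3
open Vale.Agent.Lib.P062 Vale.Agent.Lib.P062.V2

theorem alt0 : WinsOutside 13789130662570766498903759538666150344522384366147000184675589191285191719674312557606173157348492534329559861507987482711654684298859720090755325477933220479732921964608351772654825839215772727095639138793079233839104 :=
  winsOutside_of_chk (t := s3014) (by decide +kernel)

end Vale.Agent.Lib.P062.Part3
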