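import Vale.Agent.Lib.P062.Part3.A1_0

set_option maxRecDepth 100000
set_option linter.all false

namespace Vale.Agent.Lib.P062.Part3
open Vale.Agent.Lib.P062 Vale.Agent.Lib.P062.V2

theorem alt1 : WinsOutside 236895460946806839725487788537820699943238361621509936017177289191528325770232989537098386208106217707995771344050731243071023621631901051632928640451729580898656554717672334124566920816379244805616639770555250564974100799815680 :=
  winsOutside_of_chk (t := s10641) (by decide +kernel)

end Vale.Agent.Lib.P062.Part3
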