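import Vale.Agent.Lib.P062.Part3.A10_0

set_option maxRecDepth 100000
set_option linter.all false

namespace Vale.Agent.Lib.P062.Part3
open Vale.Agent.Lib.P062 Vale.Agent.Lib.P062.V2

theorem alt10 : WinsOutside 13789130662249713281004440241143041742373992506567188460871552540885210010988745158399795525415276475112032958832058224517000761134727928520858961540359082520179654125762292824712147608243763492339767808986794355064832 :=
  winsOutside_of_chk (t := s32911) (by decide +kernel)

end Vale.Agent.Lib.P062.Part3
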