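import Vale.Agent.Lib.P062.Part3.A11_0

set_option maxRecDepth 100000
set_option linter.all false

namespace Vale.Agent.Lib.P062.Part3
open Vale.Agent.Lib.P062 Vale.Agent.Lib.P062.V2

theorem alt11 : WinsOutside 9952649720811117634125546034910461039145098971918270313639466029404760873122831308137718478700366327564047895201876462619153056197006240625886367134442298443509014721197241778557379336340066297733674793172992 :=
  winsOutside_of_chk (t := s33816) (by decide +kernel)

end Vale.Agent.Lib.P062.Part3
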