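import Vale.Agent.Lib.P062.Part3.A12_0

set_option maxRecDepth 100000
set_option linter.all false

namespace Vale.Agent.Lib.P062.Part3
open Vale.Agent.Lib.P062 Vale.Agent.Lib.P062.V2

theorem alt12 : WinsOutside 11844773053752287760550877970622068280162926122966719125928809142294319612543761534982805103204482254955996803688260626591610366126841837945017772714850920321004263048649645257286694063662318830070058852102790978273706913038336 :=
  winsOutside_of_chk (t := s49410) (by decide +kernel)

end Vale.Agent.Lib.P062.Part3
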