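import Vale.Agent.Lib.P062.Part3.A2_0

set_option maxRecDepth 100000
set_option linter.all false

namespace Vale.Agent.Lib.P062.Part3
open Vale.Agent.Lib.P062 Vale.Agent.Lib.P062.V2

theorem alt2 : WinsOutside 13789130662249713282200456674404643405147721901405562772235265148414132198680669918930612671767681736450038647515433118251809424987165697793745100008563510238966920850111040645554171718160297096495582189737286110806016 :=
  winsOutside_of_chk (t := s12443) (by decide +kernel)

end Vale.Agent.Lib.P062.Part3
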