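import Vale.Agent.Lib.P062.Part3.A3_0

set_option maxRecDepth 100000
set_option linter.all false

namespace Vale.Agent.Lib.P062.Part3
open Vale.Agent.Lib.P062 Vale.Agent.Lib.P062.V2

theorem alt3 : WinsOutside 5056588164567368715551902139650878993974174994473098125018953053130857859826250307956044159117626665256442887636812351284197681169066457062341086535102481563422048555140071168594844972602155864795957705048064 :=
  winsOutside_of_chk (t := s13747) (by decide +kernel)

end Vale.Agent.Lib.P062.Part3
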