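import Vale.Agent.Lib.P062.Part3.A5_0

set_option maxRecDepth 100000
set_option linter.all false

namespace Vale.Agent.Lib.P062.Part3
open Vale.Agent.Lib.P062 Vale.Agent.Lib.P062.V2

theorem alt5 : WinsOutside 86871523164243179221607939444220004063918955364530358852777790075887702983395865457830799647245314385077321525357510123578318837938851542995483198816776183453709400329776897228179504758124792651361886035084774234652672 :=
  winsOutside_of_chk (t := s18901) (by decide +kernel)

end Vale.Agent.Lib.P062.Part3
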