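import Vale.Agent.Lib.P062.Part3.A7_0

set_option maxRecDepth 100000
set_option linter.all false

namespace Vale.Agent.Lib.P062.Part3
open Vale.Agent.Lib.P062 Vale.Agent.Lib.P062.V2

theorem alt7 : WinsOutside 4976324859190854626187280851878789927174992003581267680245482324356679318414539585895863768212355135352872294385541670746253520252790085027276668541618481322611753137249773393715725749517652495867302666829824 :=
  winsOutside_of_chk (t := s27999) (by decide +kernel)

end Vale.Agent.Lib.P062.Part3
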