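import Vale.Agent.Lib.P062.Part3.A8_0

set_option maxRecDepth 100000
set_option linter.all false

namespace Vale.Agent.Lib.P062.Part3
open Vale.Agent.Lib.P062 Vale.Agent.Lib.P062.V2

theorem alt8 : WinsOutside 20226352653522784640459955482349386893469552137016952926156963448536893813596260791330920374511245748158912077423129202069201875427667508774169250539065943707875557547247887996935497153456551651547719009304576 :=
  winsOutside_of_chk (t := s29599) (by decide +kernel)

end Vale.Agent.Lib.P062.Part3
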