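import Vale.Agent.Lib.P062.Part3.A9_0

set_option maxRecDepth 100000
set_option linter.all false

namespace Vale.Agent.Lib.P062.Part3
open Vale.Agent.Lib.P062 Vale.Agent.Lib.P062.V2

theorem alt9 : WinsOutside 13789130667386564750948323045215455177312066927414438598118930821389774307139093858037422986127245408761157675072464493982781342783617526863908357888684354533431698239120816129106926191945518286345641540626282337796096 :=
  winsOutside_of_chk (t := s31845) (by decide +kernel)

end Vale.Agent.Lib.P062.Part3
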